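import Mathlib

/-!
# P192: a periodic group with a finite presentation has at least as many relators as generators

If the group presented by `n` generators and a finite set `rels` of relators is periodic
(every element has finite order), then `n ≤ rels.card`.  Equivalently: a finite presentation
with fewer relators than generators always defines a group with an element of infinite order.
The proof maps the group onto a nontrivial subgroup of the rationals.
-/

open scoped BigOperators

namespace Vale.Agent.Results.P192.Deficiency

/-- exponent-sum coordinates on the free group, with rational values -/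
noncomputable def expo (n : ℕ) : FreeGroup (Fin n) →* Multiplicative (Fin n → ℚ) :=
  FreeGroup.lift (fun i => Multiplicative.ofAdd (Pi.single i (1 : ℚ)))

/-- the homomorphism to the rationals sending generator `i` to `c i` -/
noncomputable def wt (n : ℕ) (c : Fin n → ℚ) : FreeGroup (Fin n) →* Multiplicative ℚ :=
  FreeGroup.lift (fun i => Multiplicative.ofAdd (c i))

lemma wt_eq (n : ℕ) (c : Fin n → ℚ) (w : FreeGroup (Fin n)) :
    Multiplicative.toAdd (wt n c w) = ∑ i, c i * (Multiplicative.toAdd (expo n w)) i := by
  classical
  let L : (Fin n → ℚ) →+ ℚ :=
    { toFun := fun f => ∑ i, c i * f i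
      map_zero' := by simp
      map_add' := by intro f g; simp [mul_add, Finset.sum_add_distrib] }
  have h : wt n c = (AddMonoidHom.toMultiplicative L).comp (expo n) := by
    apply FreeGroup.ext_hom
    intro i
    simp [wt, expo, L, Pi.single_apply]
  rw [h]
  rfl

/-- A periodic group given by a finite presentation with `n` generators has at least `n`
relators. -/
theorem result (n : ℕ) (rels : Finset (FreeGroup (Fin n)))
    (hper : IsMulTorsion (PresentedGroup (rels : Set (FreeGroup (Fin n))))) :
    n ≤ rels.card := by
  classical
  by_contra hlt
  replace hlt : rels.card < n := not_le.1 hlt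
  let L : (Fin n → ℚ) →ₗ[ℚ] (rels → ℚ) :=
    { toFun := fun c r => ∑ i, c i * (Multiplicative.toAdd (expo n r.1)) i
      map_add' := by
        intro c d; funext r; simp [add_mul, Finset.sum_add_distrib]
      map_smul' := by
        intro a c; funext r; simp [Finset.mul_sum, mul_assoc] }
  have hker : LinearMap.ker L ≠ ⊥ := by
    apply LinearMap.ker_ne_bot_of_finrank_lt
    simp
    exact hlt
  obtain ⟨c, hc, hc0⟩ := (Submodule.ne_bot_iff _).1 hker
  have hLc : ∀ r ∈ rels, wt n c r = 1 := by
    intro r hr
    have := congrFun (LinearMap.mem_ker.1 hc) ⟨r, hr⟩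
    have h2 := wt_eq n c r
    have h3 : Multiplicative.toAdd (wt n c r) = 0 := by rw [h2]; exact this
    exact h3
  let ψ : PresentedGroup (rels : Set (FreeGroup (Fin n))) →* Multiplicative ℚ :=
    PresentedGroup.toGroup (f := fun i => Multiplicative.ofAdd (c i)) (by
      intro r hr
      exact hLc r hr)
  obtain ⟨i, hi⟩ : ∃ i, c i ≠ 0 := by
    by_contra hall
    exact hc0 (funext fun j => not_not.1 (not_exists.1 hall j))
  have hfin := hper (PresentedGroup.of i)
  have himg : IsOfFinOrder (ψ (PresentedGroup.of i)) := ψ.isOfFinOrder hfin
  have hval : ψ (PresentedGroup.of i) = Multiplicative.ofAdd (c i) := by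
    exact PresentedGroup.toGroup.of _
  rw [hval] at himg
  rw [isOfFinOrder_ofAdd_iff] at himg
  have : c i = 0 := by
    obtain ⟨k, hk, hk0⟩ := isOfFinAddOrder_iff_nsmul_eq_zero.1 himg
    simpa [hk.ne'] using hk0
  exact hi this

end Vale.Agent.Results.P192.Deficiency
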