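import Vale.Agent.Lib.P192.Overgroup

/-!
# P192: embedding theorems for finitely presented periodic groups

Every finitely presented periodic group `G` embeds

* in a perfect finitely presented periodic group, and
* in a finitely presented periodic group generated by two elements.

Sketch.  Let `e` be the order of the (finite) abelianization of `G` and let `P` be the alternating
group of degree `2 * e + 5`, a finite perfect group whose order is divisible by `e`.  In the
regular wreath product `G ≀ P` consider the kernel `K` of the homomorphism to the abelianization
of `G` multiplying the abelianized coordinates.  It has finite index, so it is finitely presented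
(Reidemeister-Schreier) and periodic; it is perfect; and it contains the diagonal copy of `G`.
For the second statement, let `G₁` be a perfect finitely presented periodic group containing `G`,
generated by `n` elements.  The regular wreath product of `G₁` with a cyclic group of order
`2 ^ (n + 1)` is finitely presented, periodic, contains `G₁`, and is generated by the generator
of the cyclic group together with one element of the base group whose nontrivial coordinates are
the generators of `G₁`, placed at the positions of a Sidon set.
-/

namespace Vale.Agent.Results.P192.Embedding

open Vale.Agent.Lib.P192

universe u

/-- **Embedding theorems for finitely presented periodic groups.**  Every finitely presented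
periodic group embeds in a perfect finitely presented periodic group, and also in a finitely
presented periodic group generated by two elements. -/
theorem result (G : Type u) [Group G] [Group.IsFinitelyPresented G] (hG : IsMulTorsion G) :
    (∃ (H : Type u) (_ : Group H), Group.IsFinitelyPresented H ∧ IsMulTorsion H ∧
      Group.IsPerfect H ∧ ∃ f : G →* H, Function.Injective f) ∧
    (∃ (H : Type u) (_ : Group H), Group.IsFinitelyPresented H ∧ IsMulTorsion H ∧
      (∃ a b : H, Subgroup.closure {a, b} = ⊤) ∧ ∃ f : G →* H, Function.Injective f) := by
  refine ⟨exists_perfect_overgroup G hG, ?_⟩
  obtain ⟨G₁, _, hfp, htors, hperf, f, hf⟩ := exists_perfect_overgroup G hG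
  obtain ⟨H, _, hfp', htors', hgen, f', hf'⟩ :=
    exists_two_generated_overgroup_of_perfect G₁ htors hperf.commutator_eq_top
  exact ⟨H, inferInstance, hfp', htors', hgen, f'.comp f, hf'.comp hf⟩

end Vale.Agent.Results.P192.Embedding
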