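import Vale.Agent.Lib.P192.Derivation

/-!
# P192: a necessary condition on the finite presentations of periodic groups

Let `G = ⟨x_1, ..., x_d | w_1 ^ n_1, ..., w_m ^ n_m⟩` be a periodic group (every relator is
written as a power; `n_i = 1` is allowed).  Then for every homomorphism `φ` from `G` to a finite
group `H`,

  `d - 1 + 1 / |H| ≤ ∑ i, 1 / (order of φ (w_i))`.

For the trivial group `H` this is the classical bound `d ≤ m`.  Equivalently: if some finite
quotient of a finitely presented group satisfies `∑ i, 1 / (order of φ (w_i)) ≤ d - 1`, then the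
group has an element of infinite order, so the finiteness question for finitely presented
periodic groups has a positive answer for all such presentations.

Proof.  Let `M` be the rational functions on the image of `φ`, with the translation action.  The
derivations `F → M` of the free group are parametrised by their values `v ∈ M ^ d` on the
generators.  The derivations vanishing on the relators form the kernel of a linear map whose
`i`-th component takes values in the functions fixed by `φ (w_i)`, a space of dimension
`|H| / (order of φ (w_i))`.  If `G` is periodic, each such derivation vanishes on the kernel of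
`φ` (it restricts there to a homomorphism into a torsion-free group), hence is principal by
averaging; the principal derivations form a space of dimension at most `|H| - 1`.
-/

namespace Vale.Agent.Results.P192.PowerRelators

open Vale.Agent.Lib.P192

/-- **A necessary condition on the finite presentations of periodic groups.**  If the group
presented by generators `x_1, ..., x_d` and relators `w_1 ^ n_1, ..., w_m ^ n_m` is periodic,
then for every homomorphism `φ` to a finite group `H`,
`d - 1 + 1 / |H| ≤ ∑ i, 1 / (order of φ (w_i))`. -/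
theorem result (d m : ℕ) (w : Fin m → FreeGroup (Fin d)) (n : Fin m → ℕ)
    (hper : IsMulTorsion (PresentedGroup (Set.range fun i => w i ^ n i)))
    {H : Type*} [Group H] [Finite H]
    (φ : PresentedGroup (Set.range fun i => w i ^ n i) →* H) :
    (d : ℚ) - 1 + 1 / (Nat.card H : ℚ) ≤
      ∑ i, 1 / (orderOf (φ (PresentedGroup.mk _ (w i))) : ℚ) := by
  classical
  obtain ⟨rels, hrels⟩ : ∃ rels : Set (FreeGroup (Fin d)), rels = Set.range fun i => w i ^ n i :=
    ⟨_, rfl⟩
  subst hrels
  let ψ : FreeGroup (Fin d) →* φ.range :=
    φ.rangeRestrict.comp (PresentedGroup.mk (Set.range fun i => w i ^ n i))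
  have hψ : Function.Surjective ψ :=
    φ.rangeRestrict_surjective.comp (PresentedGroup.mk_surjective _)
  have hfin : Fintype φ.range := Fintype.ofFinite _
  have hrel : ∀ i, ψ (w i ^ n i) = 1 := by
    intro i
    have h1 : PresentedGroup.mk (Set.range fun i => w i ^ n i) (w i ^ n i) = 1 :=
      PresentedGroup.one_of_mem ⟨i, rfl⟩
    show φ.rangeRestrict (PresentedGroup.mk (Set.range fun i => w i ^ n i) (w i ^ n i)) = 1
    rw [h1, map_one]
  have hb := card_bound ψ hψ w n hrel hper
  have ho : ∀ i, orderOf (ψ (w i)) =
      orderOf (φ (PresentedGroup.mk (Set.range fun i => w i ^ n i) (w i))) := by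
    intro i
    exact (Subgroup.orderOf_coe _).symm
  have hidx : ∀ i, (Subgroup.zpowers (ψ (w i))).index *
      orderOf (φ (PresentedGroup.mk (Set.range fun i => w i ^ n i) (w i))) =
      Fintype.card φ.range := by
    intro i
    rw [← ho, ← Nat.card_zpowers, mul_comm, Subgroup.card_mul_index, Nat.card_eq_fintype_card]
  have hopos : ∀ i, 0 < orderOf (φ (PresentedGroup.mk (Set.range fun i => w i ^ n i) (w i))) :=
    fun i => orderOf_pos _
  have hh : 0 < Fintype.card φ.range := Fintype.card_pos
  have hle : Fintype.card φ.range ≤ Nat.card H := by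
    rw [← Nat.card_eq_fintype_card]
    exact Subgroup.card_le_card_group _
  obtain ⟨c, hc⟩ : ∃ c : ℚ, c = (Fintype.card φ.range : ℚ) := ⟨_, rfl⟩
  have hcpos : 0 < c := by
    rw [hc]
    exact_mod_cast hh
  have hq : ∀ i, ((Subgroup.zpowers (ψ (w i))).index : ℚ) =
      c * (1 / (orderOf (φ (PresentedGroup.mk (Set.range fun i => w i ^ n i) (w i))) : ℚ)) := by
    intro i
    have h1 : ((orderOf (φ (PresentedGroup.mk (Set.range fun i => w i ^ n i) (w i))) : ℕ) : ℚ)
        ≠ 0 := by
      exact_mod_cast (hopos i).ne'
    rw [mul_one_div, eq_div_iff h1, hc]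
    exact_mod_cast hidx i
  have hbq : (d : ℚ) * c + 1 ≤ c + ∑ i, ((Subgroup.zpowers (ψ (w i))).index : ℚ) := by
    rw [hc]
    exact_mod_cast hb
  have h2 : (d : ℚ) * c + 1 ≤ c * (1 + ∑ i,
      1 / (orderOf (φ (PresentedGroup.mk (Set.range fun i => w i ^ n i) (w i))) : ℚ)) := by
    rw [mul_add, mul_one, Finset.mul_sum]
    calc (d : ℚ) * c + 1 ≤ c + ∑ i, ((Subgroup.zpowers (ψ (w i))).index : ℚ) := hbq
      _ = c + ∑ i, c *
          (1 / (orderOf (φ (PresentedGroup.mk (Set.range fun i => w i ^ n i) (w i))) : ℚ)) := by
        rw [Finset.sum_congr rfl (fun i _ => hq i)]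
  have h3 : (d : ℚ) + 1 / c ≤ 1 + ∑ i,
      1 / (orderOf (φ (PresentedGroup.mk (Set.range fun i => w i ^ n i) (w i))) : ℚ) := by
    have h5 : ((d : ℚ) + 1 / c) * c = (d : ℚ) * c + 1 := by
      field_simp
    have h6 : ((d : ℚ) + 1 / c) * c ≤ (1 + ∑ i,
        1 / (orderOf (φ (PresentedGroup.mk (Set.range fun i => w i ^ n i) (w i))) : ℚ)) * c := by
      rw [h5, mul_comm (1 + ∑ i,
        1 / (orderOf (φ (PresentedGroup.mk (Set.range fun i => w i ^ n i) (w i))) : ℚ)) c]
      exact h2
    exact le_of_mul_le_mul_right h6 hcpos
  have h4 : 1 / (Nat.card H : ℚ) ≤ 1 / c := by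
    apply one_div_le_one_div_of_le hcpos
    rw [hc]
    exact_mod_cast hle
  linarith

end Vale.Agent.Results.P192.PowerRelators
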