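import Vale.Agent.Lib.P192.Wreath
import Vale.Agent.Lib.P192.Sidon

/-!
# P192: the finitely presented Burnside problem reduces to two-generator presentations

Every finitely presented periodic group is finite if and only if every periodic group given by
a finite presentation on two generators is finite.

Proof of the nontrivial direction.  Let `G` be finitely presented and periodic, generated by
`x 0, ..., x (n-1)`.  Let `Q` be cyclic of order `2 ^ (n + 1)` with generator `σ`, and let
`W = G ≀ Q` be the regular wreath product: it is finitely presented and periodic.  Let `a` be the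
element of the base group with coordinate `x i` at position `σ ^ (2 ^ i)` and `1` elsewhere.
Since the positions form a Sidon set, commutators of translates of `a` isolate single coordinates,
and the subgroup `S` generated by `a` and `σ` contains the power of the commutator subgroup of `G`.
As the abelianization of `G` is finite, `S` has finite index in `W`, hence is finitely presented
(Reidemeister-Schreier), periodic and generated by two elements.  By hypothesis `S` is finite, so
`W` and `G` are finite.
-/

namespace Vale.Agent.Results.P192.TwoGenReduction

open Function Subgroup Vale.Agent.Lib.P192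

universe u

/-- The nontrivial direction. -/
theorem finite_of_two_generator
    (h2 : ∀ rels : Finset (FreeGroup (Fin 2)),
      IsMulTorsion (PresentedGroup (rels : Set (FreeGroup (Fin 2)))) →
      Finite (PresentedGroup (rels : Set (FreeGroup (Fin 2)))))
    (G : Type u) [Group G] [Group.IsFinitelyPresented G] (hG : IsMulTorsion G) : Finite G := by
  obtain ⟨n, φ, hφ, -⟩ := Group.IsFinitelyPresented.out (G := G)
  let x : Fin n → G := fun i => φ (FreeGroup.of i)
  have hx : closure (Set.range x) = ⊤ := by
    have h1 : Set.range x = φ '' Set.range FreeGroup.of := by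
      rw [← Set.range_comp]
      rfl
    rw [h1, ← MonoidHom.map_closure, FreeGroup.closure_range_of, ← MonoidHom.range_eq_map]
    exact MonoidHom.range_eq_top.2 hφ
  have hGfg : Group.FG G := Group.fg_of_surjective hφ
  have hAbfg : Group.FG (Abelianization G) :=
    Group.fg_of_surjective (f := Abelianization.of) (QuotientGroup.mk'_surjective _)
  have hAbfin : Finite (Abelianization G) :=
    CommGroup.finite_of_fg_isMulTorsion _
      (hG.of_surjective (f := Abelianization.of) (QuotientGroup.mk'_surjective _))
  have hNZ : NeZero (2 ^ (n + 1)) := ⟨by positivity⟩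
  let a : RegularWreathProduct G (Multiplicative (ZMod (2 ^ (n + 1)))) :=
    baseHom G _ (spread x (sidonPos n))
  let s : RegularWreathProduct G (Multiplicative (ZMod (2 ^ (n + 1)))) :=
    RegularWreathProduct.inl (Multiplicative.ofAdd (1 : ZMod (2 ^ (n + 1))))
  have haS : a ∈ closure ({a, s} : Set (RegularWreathProduct G _)) :=
    subset_closure (Set.mem_insert _ _)
  have hsS : s ∈ closure ({a, s} : Set (RegularWreathProduct G _)) :=
    subset_closure (Set.mem_insert_of_mem _ rfl)
  have hinl : ∀ c : Multiplicative (ZMod (2 ^ (n + 1))),
      RegularWreathProduct.inl c ∈ closure ({a, s} : Set (RegularWreathProduct G _)) := by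
    intro c
    rw [zmod_eq_pow _ c, map_pow]
    exact Subgroup.pow_mem _ hsS _
  have hSfi : (closure ({a, s} : Set (RegularWreathProduct G _))).FiniteIndex :=
    finiteIndex_of_commutator_pi_le _ (fun f hf =>
      commutator_pi_le x hx (sidonPos n) (sidonPos_injective n) (sidonPos_sidon n) _ haS hinl f hf)
  have hWfp : Group.IsFinitelyPresented
      (RegularWreathProduct G (Multiplicative (ZMod (2 ^ (n + 1))))) := isFinitelyPresented_wreath
  have hSfp : Group.IsFinitelyPresented (closure ({a, s} : Set (RegularWreathProduct G _))) :=
    isFinitelyPresented_of_finiteIndex _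
  have hStors : IsMulTorsion (closure ({a, s} : Set (RegularWreathProduct G _))) :=
    (isMulTorsion_wreath hG).subgroup _
  -- the subgroup is generated by two elements
  let ψ : FreeGroup (Fin 2) →* closure ({a, s} : Set (RegularWreathProduct G _)) :=
    FreeGroup.lift ![⟨a, haS⟩, ⟨s, hsS⟩]
  have hψ : Surjective ψ := by
    rw [← MonoidHom.range_eq_top, eq_top_iff, ← Subgroup.closure_closure_coe_preimage,
      closure_le]
    rintro ⟨y, hy⟩ hmem
    have hmem' : y = a ∨ y = s := hmem
    rcases hmem' with rfl | rfl
    · exact ⟨FreeGroup.of 0, by simp [ψ]⟩
    · exact ⟨FreeGroup.of 1, by simp [ψ]⟩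
  obtain ⟨T, hTfin, hT⟩ := ker_fng_of_isFinitelyPresented ψ hψ
  let e : PresentedGroup T ≃* closure ({a, s} : Set (RegularWreathProduct G _)) :=
    (QuotientGroup.quotientMulEquivOfEq hT).trans
      (QuotientGroup.quotientKerEquivOfSurjective ψ hψ)
  have hPtors : IsMulTorsion (PresentedGroup T) :=
    hStors.of_surjective (f := e.symm.toMonoidHom) e.symm.surjective
  have hfinP : Finite (PresentedGroup T) := by
    have h3 := h2 hTfin.toFinset
    rw [Set.Finite.coe_toFinset] at h3
    exact h3 hPtors
  have hSfin : Finite (closure ({a, s} : Set (RegularWreathProduct G _))) :=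
    Finite.of_equiv _ e.toEquiv
  have hWfin : Finite (RegularWreathProduct G (Multiplicative (ZMod (2 ^ (n + 1))))) :=
    (Subgroup.finite_iff_finite_and_finiteIndex
      (H := closure ({a, s} : Set (RegularWreathProduct G _)))).2 ⟨hSfin, hSfi⟩
  exact Finite.of_injective
    (fun g : G => baseHom G (Multiplicative (ZMod (2 ^ (n + 1)))) (fun _ => g))
    (fun g g' h => congrFun (baseHom_injective h) 1)

/-- **Reduction of the finitely presented Burnside problem to two generators.**
Every periodic group given by a finite presentation on two generators is finite if and only if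
every finitely presented periodic group is finite. -/
theorem result :
    (∀ rels : Finset (FreeGroup (Fin 2)),
      IsMulTorsion (PresentedGroup (rels : Set (FreeGroup (Fin 2)))) →
      Finite (PresentedGroup (rels : Set (FreeGroup (Fin 2))))) ↔
    (∀ (G : Type u) [Group G] [Group.IsFinitelyPresented G], IsMulTorsion G → Finite G) := by
  constructor
  · intro h2 G _ _ hG
    exact finite_of_two_generator h2 G hG
  · intro h rels htors
    let e : PresentedGroup (rels : Set (FreeGroup (Fin 2))) ≃*
        ULift.{u} (PresentedGroup (rels : Set (FreeGroup (Fin 2)))) := MulEquiv.ulift.symm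
    have h1 : Group.IsFinitelyPresented
        (ULift.{u} (PresentedGroup (rels : Set (FreeGroup (Fin 2))))) :=
      Group.IsFinitelyPresented.equiv e
    have h2 : IsMulTorsion (ULift.{u} (PresentedGroup (rels : Set (FreeGroup (Fin 2))))) :=
      htors.of_surjective (f := e.toMonoidHom) e.surjective
    have h3 := h (ULift.{u} (PresentedGroup (rels : Set (FreeGroup (Fin 2))))) h2
    exact Finite.of_equiv _ e.symm.toEquiv

end Vale.Agent.Results.P192.TwoGenReduction
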